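import Vale.Agent.Lib.P235.Defs
import Vale.Agent.Lib.P235.Assemble

namespace Vale.Agent.Results.P235.TreewidthThree

open Vale.Agent.Lib.P235

/-- Every finite connected graph of treewidth at most three, with arbitrary positive edge lengths,
embeds into a finite weighted `L_1` space with distortion at most `2 * 10 ^ 18`. -/
theorem result (V : Type) [Fintype V] [DecidableEq V] (G : SimpleGraph V) (hG : G.Connected)
    (l : Sym2 V → ℝ) (hl : ∀ e ∈ G.edgeSet, 0 < l e)
    (I : Type) [Fintype I] (T : SimpleGraph I) (B : I → Finset V)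
    (hD : IsTreeDecomp G T B) (hw : ∀ t, (B t).card ≤ 4) :
    ∃ (Ω : Type) (_ : Fintype Ω) (μ : Ω → ℝ) (f : V → Ω → ℝ), (∀ ω, 0 ≤ μ ω) ∧ ∀ x y,
      pathDist G l x y ≤ ∑ ω, μ ω * |f x ω - f y ω| ∧
      ∑ ω, μ ω * |f x ω - f y ω| ≤ 2000000000000000000 * pathDist G l x y :=
  main_tw3 hG hl hD hw

end Vale.Agent.Results.P235.TreewidthThree
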